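import Crest.Agent.Snaky.Core

/-! Bitmask representation of patterns and the checked rules. Cell `(x, y)` with `0 ≤ x < 15`,
`0 ≤ y` is bit `15 * y + x`. -/

set_option autoImplicit false

namespace Crest.Agent.Snaky

open Crest.CombinatoricsR.PolyominoGame

def toCell (i : ℕ) : Cell := (((i % 15 : ℕ) : ℤ), ((i / 15 : ℕ) : ℤ))

theorem toCell_inj {i j : ℕ} (h : toCell i = toCell j) : i = j := by
  unfold toCell at h
  have h1 := congrArg Prod.fst h
  have h2 := congrArg Prod.snd h
  simp only [Nat.cast_inj] at h1 h2
  omega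

def S (a : ℕ) : Set Cell := {c | ∃ i, a.testBit i = true ∧ c = toCell i}

theorem mem_S {a i : ℕ} : toCell i ∈ S a ↔ a.testBit i = true := by
  constructor
  · rintro ⟨j, hj, h⟩
    rwa [toCell_inj h]
  · intro h; exact ⟨i, h, rfl⟩

theorem S_zero : S 0 = ∅ := by
  ext c; simp [S]

theorem S_subset {a b : ℕ} (h : a ||| b = b) : S a ⊆ S b := by
  rintro c ⟨i, hi, rfl⟩
  refine ⟨i, ?_, rfl⟩
  rw [← h, Nat.testBit_or, hi, Bool.true_or]

/-- The pattern predicate on bitmasks. -/
def G (n M Z : ℕ) : Prop := Good n (S M) (S Z)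

/-- The eight orientations, as bitmasks relative to the lower-left corner of the bounding box. -/
def mask : ℕ → ℕ
  | 0 => 2^0 + 2^1 + 2^2 + 2^3 + 2^(15+3) + 2^(15+4)          -- (x, y)
  | 1 => 2^4 + 2^3 + 2^2 + 2^1 + 2^(15+1) + 2^(15+0)          -- (-x, y)
  | 2 => 2^(15+0) + 2^(15+1) + 2^(15+2) + 2^(15+3) + 2^3 + 2^4          -- (x, -y)
  | 3 => 2^(15+4) + 2^(15+3) + 2^(15+2) + 2^(15+1) + 2^1 + 2^0          -- (-x, -y)
  | 4 => 2^0 + 2^15 + 2^30 + 2^45 + 2^(45+1) + 2^(60+1)       -- (y, x)
  | 5 => 2^1 + 2^16 + 2^31 + 2^46 + 2^45 + 2^60               -- (-y, x)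
  | 6 => 2^60 + 2^45 + 2^30 + 2^15 + 2^(15+1) + 2^(0+1)       -- (y, -x)
  | _ => 2^61 + 2^46 + 2^31 + 2^16 + 2^15 + 2^0               -- (-y, -x)

def width : ℕ → ℕ
  | 0 => 5 | 1 => 5 | 2 => 5 | 3 => 5 | _ => 2

theorem mem_shift {a i k : ℕ} (h : a.testBit k = true) : toCell (i + k) ∈ S (a <<< i) := by
  rw [mem_S, Nat.testBit_shiftLeft]
  simp [h]

theorem cell_mem {a i k : ℕ} {c : Cell} (h : a.testBit k = true)
    (h1 : c.1 = (((i + k) % 15 : ℕ) : ℤ)) (h2 : c.2 = (((i + k) / 15 : ℕ) : ℤ)) : c ∈ S (a <<< i) := by
  have := mem_shift (i := i) h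
  have e : c = toCell (i + k) := Prod.ext h1 h2
  rwa [e]

theorem copy_mask (o i : ℕ) (h : i % 15 + width o ≤ 15) : ContainsCopy (S (mask o <<< i)) := by
  have hs : ∀ q : Cell → Prop, q (0,0) → q (1,0) → q (2,0) → q (3,0) → q (3,1) → q (4,1) →
      ∀ p ∈ snaky, q p := by
    intro q h0 h1 h2 h3 h4 h5 p hp
    simp only [snaky, Finset.mem_insert, Finset.mem_singleton] at hp
    rcases hp with rfl | rfl | rfl | rfl | rfl | rfl <;> assumption
  match o, h with
  | 0, h =>
    simp only [width] at h
    refine ⟨(((i % 15 : ℕ) : ℤ), ((i / 15 : ℕ) : ℤ)), 1, 1, by simp, by simp, Or.inl (hs _ ?_ ?_ ?_ ?_ ?_ ?_)⟩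
    · exact cell_mem (k := 0) (by decide) (by push_cast; omega) (by push_cast; omega)
    · exact cell_mem (k := 1) (by decide) (by push_cast; omega) (by push_cast; omega)
    · exact cell_mem (k := 2) (by decide) (by push_cast; omega) (by push_cast; omega)
    · exact cell_mem (k := 3) (by decide) (by push_cast; omega) (by push_cast; omega)
    · exact cell_mem (k := 18) (by decide) (by push_cast; omega) (by push_cast; omega)
    · exact cell_mem (k := 19) (by decide) (by push_cast; omega) (by push_cast; omega)
  | 1, h =>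
    simp only [width] at h
    refine ⟨(((i % 15 : ℕ) : ℤ) + 4, ((i / 15 : ℕ) : ℤ)), -1, 1, by simp, by simp, Or.inl (hs _ ?_ ?_ ?_ ?_ ?_ ?_)⟩
    · exact cell_mem (k := 4) (by decide) (by push_cast; omega) (by push_cast; omega)
    · exact cell_mem (k := 3) (by decide) (by push_cast; omega) (by push_cast; omega)
    · exact cell_mem (k := 2) (by decide) (by push_cast; omega) (by push_cast; omega)
    · exact cell_mem (k := 1) (by decide) (by push_cast; omega) (by push_cast; omega)
    · exact cell_mem (k := 16) (by decide) (by push_cast; omega) (by push_cast; omega)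
    · exact cell_mem (k := 15) (by decide) (by push_cast; omega) (by push_cast; omega)
  | 2, h =>
    simp only [width] at h
    refine ⟨(((i % 15 : ℕ) : ℤ), ((i / 15 : ℕ) : ℤ) + 1), 1, -1, by simp, by simp, Or.inl (hs _ ?_ ?_ ?_ ?_ ?_ ?_)⟩
    · exact cell_mem (k := 15) (by decide) (by push_cast; omega) (by push_cast; omega)
    · exact cell_mem (k := 16) (by decide) (by push_cast; omega) (by push_cast; omega)
    · exact cell_mem (k := 17) (by decide) (by push_cast; omega) (by push_cast; omega)
    · exact cell_mem (k := 18) (by decide) (by push_cast; omega) (by push_cast; omega)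
    · exact cell_mem (k := 3) (by decide) (by push_cast; omega) (by push_cast; omega)
    · exact cell_mem (k := 4) (by decide) (by push_cast; omega) (by push_cast; omega)
  | 3, h =>
    simp only [width] at h
    refine ⟨(((i % 15 : ℕ) : ℤ) + 4, ((i / 15 : ℕ) : ℤ) + 1), -1, -1, by simp, by simp, Or.inl (hs _ ?_ ?_ ?_ ?_ ?_ ?_)⟩
    · exact cell_mem (k := 19) (by decide) (by push_cast; omega) (by push_cast; omega)
    · exact cell_mem (k := 18) (by decide) (by push_cast; omega) (by push_cast; omega)
    · exact cell_mem (k := 17) (by decide) (by push_cast; omega) (by push_cast; omega)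
    · exact cell_mem (k := 16) (by decide) (by push_cast; omega) (by push_cast; omega)
    · exact cell_mem (k := 1) (by decide) (by push_cast; omega) (by push_cast; omega)
    · exact cell_mem (k := 0) (by decide) (by push_cast; omega) (by push_cast; omega)
  | 4, h =>
    simp only [width] at h
    refine ⟨(((i % 15 : ℕ) : ℤ), ((i / 15 : ℕ) : ℤ)), 1, 1, by simp, by simp, Or.inr (hs _ ?_ ?_ ?_ ?_ ?_ ?_)⟩
    · exact cell_mem (k := 0) (by decide) (by push_cast; omega) (by push_cast; omega)
    · exact cell_mem (k := 15) (by decide) (by push_cast; omega) (by push_cast; omega)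
    · exact cell_mem (k := 30) (by decide) (by push_cast; omega) (by push_cast; omega)
    · exact cell_mem (k := 45) (by decide) (by push_cast; omega) (by push_cast; omega)
    · exact cell_mem (k := 46) (by decide) (by push_cast; omega) (by push_cast; omega)
    · exact cell_mem (k := 61) (by decide) (by push_cast; omega) (by push_cast; omega)
  | 5, h =>
    simp only [width] at h
    refine ⟨(((i % 15 : ℕ) : ℤ) + 1, ((i / 15 : ℕ) : ℤ)), -1, 1, by simp, by simp, Or.inr (hs _ ?_ ?_ ?_ ?_ ?_ ?_)⟩
    · exact cell_mem (k := 1) (by decide) (by push_cast; omega) (by push_cast; omega)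
    · exact cell_mem (k := 16) (by decide) (by push_cast; omega) (by push_cast; omega)
    · exact cell_mem (k := 31) (by decide) (by push_cast; omega) (by push_cast; omega)
    · exact cell_mem (k := 46) (by decide) (by push_cast; omega) (by push_cast; omega)
    · exact cell_mem (k := 45) (by decide) (by push_cast; omega) (by push_cast; omega)
    · exact cell_mem (k := 60) (by decide) (by push_cast; omega) (by push_cast; omega)
  | 6, h =>
    simp only [width] at h
    refine ⟨(((i % 15 : ℕ) : ℤ), ((i / 15 : ℕ) : ℤ) + 4), 1, -1, by simp, by simp, Or.inr (hs _ ?_ ?_ ?_ ?_ ?_ ?_)⟩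
    · exact cell_mem (k := 60) (by decide) (by push_cast; omega) (by push_cast; omega)
    · exact cell_mem (k := 45) (by decide) (by push_cast; omega) (by push_cast; omega)
    · exact cell_mem (k := 30) (by decide) (by push_cast; omega) (by push_cast; omega)
    · exact cell_mem (k := 15) (by decide) (by push_cast; omega) (by push_cast; omega)
    · exact cell_mem (k := 16) (by decide) (by push_cast; omega) (by push_cast; omega)
    · exact cell_mem (k := 1) (by decide) (by push_cast; omega) (by push_cast; omega)
  | (j + 7), h =>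
    simp only [width] at h
    refine ⟨(((i % 15 : ℕ) : ℤ) + 1, ((i / 15 : ℕ) : ℤ) + 4), -1, -1, by simp, by simp, Or.inr (hs _ ?_ ?_ ?_ ?_ ?_ ?_)⟩
    · exact cell_mem (k := 61) (by simp only [mask]; decide) (by push_cast; omega) (by push_cast; omega)
    · exact cell_mem (k := 46) (by simp only [mask]; decide) (by push_cast; omega) (by push_cast; omega)
    · exact cell_mem (k := 31) (by simp only [mask]; decide) (by push_cast; omega) (by push_cast; omega)
    · exact cell_mem (k := 16) (by simp only [mask]; decide) (by push_cast; omega) (by push_cast; omega)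
    · exact cell_mem (k := 15) (by simp only [mask]; decide) (by push_cast; omega) (by push_cast; omega)
    · exact cell_mem (k := 0) (by simp only [mask]; decide) (by push_cast; omega) (by push_cast; omega)

end Crest.Agent.Snaky
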