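import Crest.Prelude.Def_PolyominoGame

/-!
Core of the Snaky proof: the abstract game, the pattern calculus, and the reduction of the
statement S0047 to `Win 21 ∅ ∅`.
-/

set_option autoImplicit false

namespace Crest.Agent.Snaky

open Crest.CombinatoricsR.PolyominoGame

abbrev Cell := ℤ × ℤ

/-- `Win n M B`: with Maker owning `M`, Breaker owning `B`, Maker to move with `n` claims left,
Maker can force a copy. -/
def Win : ℕ → Set Cell → Set Cell → Prop
  | 0, M, _ => ContainsCopy M
  | n + 1, M, B => ∃ m, m ∉ M ∧ m ∉ B ∧ ∀ b, b ∉ insert m M → b ∉ B → Win n (insert m M) (insert b B)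

theorem copy_mono {X Y : Set Cell} (h : X ⊆ Y) (hX : ContainsCopy X) : ContainsCopy Y := by
  obtain ⟨t, e1, e2, h1, h2, h3⟩ := hX
  refine ⟨t, e1, e2, h1, h2, ?_⟩
  rcases h3 with h3 | h3
  · exact Or.inl fun p hp => h (h3 p hp)
  · exact Or.inr fun p hp => h (h3 p hp)

theorem exists_fresh {M B : Set Cell} (hM : M.Finite) (hB : B.Finite) :
    ∃ m, m ∉ M ∧ m ∉ B := by
  have : ((M ∪ B)ᶜ : Set Cell).Nonempty := (hM.union hB).infinite_compl.nonempty
  obtain ⟨m, hm⟩ := this
  exact ⟨m, fun h => hm (Or.inl h), fun h => hm (Or.inr h)⟩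

/-- Having already a copy, Maker wins with any number of claims. -/
theorem win_of_copy (n : ℕ) : ∀ {M B : Set Cell}, M.Finite → B.Finite → ContainsCopy M →
    Win n M B := by
  induction n with
  | zero => intro M B _ _ h; exact h
  | succ n ih =>
    intro M B hM hB h
    obtain ⟨m, hm, hmB⟩ := exists_fresh hM hB
    refine ⟨m, hm, hmB, fun b _ _ => ih (hM.insert m) (hB.insert b) (copy_mono (Set.subset_insert _ _) h)⟩

theorem Win.succ {n : ℕ} : ∀ {M B : Set Cell}, M.Finite → B.Finite → Win n M B →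
    Win (n + 1) M B := by
  induction n with
  | zero => intro M B hM hB h; exact win_of_copy 1 hM hB h
  | succ n ih =>
    intro M B hM hB h
    obtain ⟨m, hm, hmB, h⟩ := h
    exact ⟨m, hm, hmB, fun b hb hbB => ih (hM.insert m) (hB.insert b) (h b hb hbB)⟩

theorem Win.mono_n {n k : ℕ} (hnk : n ≤ k) {M B : Set Cell} (hM : M.Finite) (hB : B.Finite)
    (h : Win n M B) : Win k M B := by
  induction hnk with
  | refl => exact h
  | step _ ih => exact ih.succ hM hB

/-- Pattern predicate: whenever Maker owns at least `M`, Breaker owns nothing of `Z` and Maker is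
to move with `n` claims left, Maker wins. -/
def Good (n : ℕ) (M Z : Set Cell) : Prop :=
  ∀ M' B' : Set Cell, M'.Finite → B'.Finite → M ⊆ M' → Disjoint B' Z → Disjoint M' B' →
    Win n M' B'

theorem Good.mono {n k : ℕ} {M M₂ Z Z₂ : Set Cell} (h : Good n M Z) (hn : n ≤ k) (hM : M ⊆ M₂)
    (hZ : Z ⊆ Z₂) : Good k M₂ Z₂ := by
  intro M' B' fM fB hMM hBZ hMB
  exact (h M' B' fM fB (hM.trans hMM) (hBZ.mono_right hZ) hMB).mono_n hn fM fB

/-- A copy with one missing cell `c`. -/
theorem good_leaf {M Z : Set Cell} (c : Cell) (hc : c ∈ Z) (h : ContainsCopy (insert c M)) :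
    Good 1 M Z := by
  intro M' B' fM fB hMM hBZ hMB
  by_cases hcM : c ∈ M'
  · exact win_of_copy 1 fM fB (copy_mono (Set.insert_subset hcM hMM) h)
  · refine ⟨c, hcM, fun hcB => Set.disjoint_left.1 hBZ hcB hc, fun b _ _ => ?_⟩
    exact copy_mono (Set.insert_subset_insert hMM) h

/-- The node rule. -/
theorem good_node {n : ℕ} {M Z : Set Cell} (m : Cell) (hm : m ∈ Z)
    (h : ∀ b : Cell, ∃ M₁ Z₁ : Set Cell, Good n M₁ Z₁ ∧ M₁ ⊆ insert m M ∧ Z₁ ⊆ Z ∧ b ∉ Z₁) :
    Good (n + 1) M Z := by
  intro M' B' fM fB hMM hBZ hMB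
  -- choose the actual move
  have key : ∀ m' : Cell, m' ∉ M' → m' ∉ B' → m ∈ insert m' M' → Win (n + 1) M' B' := by
    intro m' h1 h2 h3
    refine ⟨m', h1, h2, fun b hb hbB => ?_⟩
    obtain ⟨M₁, Z₁, hg, hM₁, hZ₁, hbZ⟩ := h b
    refine hg _ _ (fM.insert m') (fB.insert b) ?_ ?_ ?_
    · intro x hx
      rcases hM₁ hx with rfl | hx'
      · exact h3
      · exact Set.mem_insert_of_mem _ (hMM hx')
    · rw [Set.disjoint_left]
      intro x hx hxZ
      rcases hx with rfl | hx
      · exact hbZ hxZ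
      · exact Set.disjoint_left.1 hBZ hx (hZ₁ hxZ)
    · rw [Set.disjoint_left]
      intro x hx hxB
      rcases hxB with rfl | hxB
      · exact hb hx
      · rcases hx with rfl | hx
        · exact h2 hxB
        · exact Set.disjoint_left.1 hMB hx hxB
  by_cases hmM : m ∈ M'
  · obtain ⟨m', h1, h2⟩ := exists_fresh fM fB
    exact key m' h1 h2 (Set.mem_insert_of_mem _ hmM)
  · exact key m hmM (fun hmB => Set.disjoint_left.1 hBZ hmB hm) (Set.mem_insert _ _)

/-! ### Reduction of the statement -/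

open Classical in
/-- Maker's chosen move. -/
noncomputable def pick (n : ℕ) (M B : Set Cell) : Cell :=
  if h : Win (n + 1) M B then h.choose else (0, 0)

theorem pick_spec {n : ℕ} {M B : Set Cell} (h : Win (n + 1) M B) :
    pick n M B ∉ M ∧ pick n M B ∉ B ∧
      ∀ b, b ∉ insert (pick n M B) M → b ∉ B → Win n (insert (pick n M B) M) (insert b B) := by
  unfold pick
  rw [dif_pos h]
  exact Exists.choose_spec (p := fun m => m ∉ M ∧ m ∉ B ∧
    ∀ b, b ∉ insert m M → b ∉ B → Win n (insert m M) (insert b B)) h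

/-- State: remaining claims minus one, Maker's set, Breaker's set. -/
noncomputable def step (s : ℕ × Set Cell × Set Cell) (b : Cell) : ℕ × Set Cell × Set Cell :=
  (s.1 - 1, insert (pick s.1 s.2.1 s.2.2) s.2.1, insert b s.2.2)

noncomputable def strat (N : ℕ) (h : List Cell) : Cell :=
  let s := h.foldl step (N, ∅, ∅)
  pick s.1 s.2.1 s.2.2

theorem state_eq (N : ℕ) (b : ℕ → Cell) (k : ℕ) (hk : k ≤ N) :
    ((List.range k).map b).foldl step (N, (∅ : Set Cell), (∅ : Set Cell)) =
      (N - k, {c | ∃ j, j < k ∧ c = makerClaim (strat N) b j}, {c | ∃ j, j < k ∧ c = b j}) := by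
  induction k with
  | zero => simp
  | succ k ih =>
    have ih' := ih (by omega)
    rw [List.range_succ, List.map_append, List.foldl_append]
    simp only [List.map_cons, List.map_nil, List.foldl_cons, List.foldl_nil]
    have hclaim : makerClaim (strat N) b k =
        pick (N - k) {c | ∃ j, j < k ∧ c = makerClaim (strat N) b j} {c | ∃ j, j < k ∧ c = b j} := by
      conv_lhs => unfold makerClaim strat
      rw [ih']
    rw [ih']
    unfold step
    simp only [Prod.mk.injEq]
    refine ⟨by omega, ?_, ?_⟩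
    · rw [← hclaim]
      ext c
      simp only [Set.mem_insert_iff, Set.mem_ofPred_eq]
      constructor
      · rintro (rfl | ⟨j, hj, rfl⟩)
        · exact ⟨k, by omega, rfl⟩
        · exact ⟨j, by omega, rfl⟩
      · rintro ⟨j, hj, rfl⟩
        rcases Nat.lt_succ_iff_lt_or_eq.1 hj with h | rfl
        · exact Or.inr ⟨j, h, rfl⟩
        · exact Or.inl rfl
    · ext c
      simp only [Set.mem_insert_iff, Set.mem_ofPred_eq]
      constructor
      · rintro (rfl | ⟨j, hj, rfl⟩)
        · exact ⟨k, by omega, rfl⟩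
        · exact ⟨j, by omega, rfl⟩
      · rintro ⟨j, hj, rfl⟩
        rcases Nat.lt_succ_iff_lt_or_eq.1 hj with h | rfl
        · exact Or.inr ⟨j, h, rfl⟩
        · exact Or.inl rfl

theorem claim_eq (N : ℕ) (b : ℕ → Cell) (k : ℕ) (hk : k ≤ N) :
    makerClaim (strat N) b k =
      pick (N - k) {c | ∃ j, j < k ∧ c = makerClaim (strat N) b j} {c | ∃ j, j < k ∧ c = b j} := by
  conv_lhs => unfold makerClaim strat
  rw [state_eq N b k hk]

theorem main_of_win (hwin : Win 21 ∅ ∅) :
    ∃ σ : List (ℤ × ℤ) → ℤ × ℤ, ∀ b : ℕ → ℤ × ℤ,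
      (∀ k : ℕ, k < 20 →
        (∀ j : ℕ, j ≤ k → b k ≠ makerClaim σ b j) ∧ (∀ j : ℕ, j < k → b k ≠ b j)) →
      (∀ k : ℕ, k ≤ 20 →
        (∀ j : ℕ, j < k → makerClaim σ b k ≠ makerClaim σ b j) ∧
        (∀ j : ℕ, j < k → makerClaim σ b k ≠ b j)) ∧
      ContainsCopy {c | ∃ j : ℕ, j ≤ 20 ∧ c = makerClaim σ b j} := by
  refine ⟨strat 20, fun b hb => ?_⟩
  -- invariant
  have inv : ∀ k, k ≤ 20 → Win (20 - k + 1) {c | ∃ j, j < k ∧ c = makerClaim (strat 20) b j}
      {c | ∃ j, j < k ∧ c = b j} := by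
    intro k
    induction k with
    | zero => intro _; simpa using hwin
    | succ k ih =>
      intro hk
      have hw := ih (by omega)
      have hs := pick_spec hw
      rw [← claim_eq 20 b k (by omega)] at hs
      have hb' := hb k (by omega)
      have h3 := hs.2.2 (b k) (by
        simp only [Set.mem_insert_iff, Set.mem_ofPred_eq, not_or, not_exists, not_and]
        exact ⟨hb'.1 k le_rfl, fun j hj => hb'.1 j hj.le⟩) (by
        simp only [Set.mem_ofPred_eq, not_exists, not_and]
        exact fun j hj => hb'.2 j hj)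
      have e1 : insert (makerClaim (strat 20) b k) {c | ∃ j, j < k ∧ c = makerClaim (strat 20) b j} =
          {c | ∃ j, j < k + 1 ∧ c = makerClaim (strat 20) b j} := by
        ext c
        simp only [Set.mem_insert_iff, Set.mem_ofPred_eq]
        constructor
        · rintro (rfl | ⟨j, hj, rfl⟩)
          · exact ⟨k, by omega, rfl⟩
          · exact ⟨j, by omega, rfl⟩
        · rintro ⟨j, hj, rfl⟩
          rcases Nat.lt_succ_iff_lt_or_eq.1 hj with h | rfl
          · exact Or.inr ⟨j, h, rfl⟩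
          · exact Or.inl rfl
      have e2 : insert (b k) {c | ∃ j, j < k ∧ c = b j} = {c | ∃ j, j < k + 1 ∧ c = b j} := by
        ext c
        simp only [Set.mem_insert_iff, Set.mem_ofPred_eq]
        constructor
        · rintro (rfl | ⟨j, hj, rfl⟩)
          · exact ⟨k, by omega, rfl⟩
          · exact ⟨j, by omega, rfl⟩
        · rintro ⟨j, hj, rfl⟩
          rcases Nat.lt_succ_iff_lt_or_eq.1 hj with h | rfl
          · exact Or.inr ⟨j, h, rfl⟩
          · exact Or.inl rfl
      rw [e1, e2] at h3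
      have e3 : 20 - (k + 1) + 1 = 20 - k := by omega
      rw [e3]
      exact h3
  constructor
  · intro k hk
    have hs := pick_spec (inv k hk)
    rw [← claim_eq 20 b k hk] at hs
    constructor
    · intro j hj h
      exact hs.1 ⟨j, hj, h⟩
    · intro j hj h
      exact hs.2.1 ⟨j, hj, h⟩
  · have hs := pick_spec (inv 20 le_rfl)
    rw [← claim_eq 20 b 20 le_rfl] at hs
    -- choose a fresh reply
    have fM : (insert (makerClaim (strat 20) b 20)
        {c | ∃ j, j < 20 ∧ c = makerClaim (strat 20) b j} : Set Cell).Finite := by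
      apply Set.Finite.insert
      have : {c | ∃ j, j < 20 ∧ c = makerClaim (strat 20) b j} =
          (fun j => makerClaim (strat 20) b j) '' (Set.Iio 20) := by
        ext c; simp only [Set.mem_ofPred_eq, Set.mem_image, Set.mem_Iio]
        exact ⟨fun ⟨j, h1, h2⟩ => ⟨j, h1, h2.symm⟩, fun ⟨j, h1, h2⟩ => ⟨j, h1, h2.symm⟩⟩
      rw [this]
      exact (Set.finite_Iio 20).image _
    have fB : ({c | ∃ j, j < 20 ∧ c = b j} : Set Cell).Finite := by
      have : {c | ∃ j, j < 20 ∧ c = b j} = (fun j => b j) '' (Set.Iio 20) := by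
        ext c; simp only [Set.mem_ofPred_eq, Set.mem_image, Set.mem_Iio]
        exact ⟨fun ⟨j, h1, h2⟩ => ⟨j, h1, h2.symm⟩, fun ⟨j, h1, h2⟩ => ⟨j, h1, h2.symm⟩⟩
      rw [this]
      exact (Set.finite_Iio 20).image _
    obtain ⟨r, hr1, hr2⟩ := exists_fresh fM fB
    have h3 : ContainsCopy _ := hs.2.2 r hr1 hr2
    refine copy_mono ?_ h3
    rintro c (rfl | ⟨j, hj, rfl⟩)
    · exact ⟨20, le_rfl, rfl⟩
    · exact ⟨j, by omega, rfl⟩

theorem win_of_good {Z : Set Cell} (h : Good 21 ∅ Z) : Win 21 ∅ ∅ :=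
  h ∅ ∅ Set.finite_empty Set.finite_empty le_rfl (Set.empty_disjoint _) (Set.empty_disjoint _)

end Crest.Agent.Snaky
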