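import Crest.Agent.Snaky.Check

set_option autoImplicit false

namespace Crest.Agent.Snaky

theorem beq_iff {a b : ℕ} : Nat.beq a b = true ↔ a = b :=
  ⟨Nat.eq_of_beq_eq_true, fun h => h ▸ Nat.beq_refl a⟩

theorem leafG {o i c M Z : ℕ}
    (h : (Nat.beq (M ||| (1 <<< c)) (mask o <<< i) && Nat.ble (i % 15 + width o) 15 &&
      Nat.beq Z (1 <<< c)) = true) : G 1 M Z := by
  simp only [Bool.and_eq_true, beq_iff, Nat.ble_eq] at h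
  obtain ⟨⟨h1, h2⟩, rfl⟩ := h
  have hc : toCell c ∈ S (1 <<< c) := by
    rw [mem_S]; simp
  refine good_leaf (toCell c) hc (copy_mono ?_ (copy_mask o i h2))
  rw [← h1]
  rintro x ⟨j, hj, rfl⟩
  rw [Nat.testBit_or, Bool.or_eq_true] at hj
  rcases hj with hj | hj
  · exact Set.mem_insert_of_mem _ ⟨j, hj, rfl⟩
  · have : c = j := by
      rw [Nat.one_shiftLeft, Nat.testBit_two_pow, decide_eq_true_eq] at hj
      exact hj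
    subst this
    exact Set.mem_insert _ _

/-- Accumulated family of strategies. -/
def Acc (n M Z I : ℕ) : Prop :=
  ∀ b : Cell, b ∉ S I → ∃ M₁ Z₁ : Set Cell, Good n M₁ Z₁ ∧ M₁ ⊆ S M ∧ Z₁ ⊆ S Z ∧ b ∉ Z₁

theorem S_or_left (a b : ℕ) : S a ⊆ S (a ||| b) := by
  rintro c ⟨i, hi, rfl⟩
  exact ⟨i, by rw [Nat.testBit_or, hi, Bool.true_or], rfl⟩

theorem S_or_right (a b : ℕ) : S b ⊆ S (a ||| b) := by
  rintro c ⟨i, hi, rfl⟩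
  exact ⟨i, by rw [Nat.testBit_or, hi, Bool.or_true], rfl⟩

theorem acc_one {n n₁ M₁ Z₁ : ℕ} (h : G n₁ M₁ Z₁) (hn : n₁ ≤ n) : Acc n M₁ Z₁ Z₁ := by
  intro b hb
  exact ⟨_, _, h.mono hn le_rfl le_rfl, le_rfl, le_rfl, hb⟩

theorem acc_cons {n n₁ M₁ Z₁ M Z I : ℕ} (h : G n₁ M₁ Z₁) (hn : n₁ ≤ n) (ha : Acc n M Z I) :
    Acc n (M ||| M₁) (Z ||| Z₁) (I &&& Z₁) := by
  intro b hb
  by_cases h1 : b ∈ S Z₁
  · have h2 : b ∉ S I := by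
      intro h2
      apply hb
      obtain ⟨i, hi, rfl⟩ := h1
      rw [mem_S] at h2
      exact ⟨i, by rw [Nat.testBit_and, hi, h2]; rfl, rfl⟩
    obtain ⟨M₂, Z₂, g1, g2, g3, g4⟩ := ha b h2
    exact ⟨M₂, Z₂, g1, g2.trans (S_or_left _ _), g3.trans (S_or_left _ _), g4⟩
  · exact ⟨_, _, h.mono hn le_rfl le_rfl, S_or_right _ _, S_or_right _ _, h1⟩

theorem acc_fin {n m M Z M' Z' : ℕ} (ha : Acc n M Z 0)
    (h : (Nat.beq (M' ||| M ||| (1 <<< m)) (M' ||| (1 <<< m)) && Nat.beq Z' (Z ||| (1 <<< m))) = true) :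
    G (n + 1) M' Z' := by
  simp only [Bool.and_eq_true, beq_iff] at h
  obtain ⟨h1, rfl⟩ := h
  refine good_node (toCell m) ?_ ?_
  · refine S_or_right _ _ ?_
    rw [mem_S]; simp
  · intro b
    obtain ⟨M₂, Z₂, g1, g2, g3, g4⟩ := ha b (by rw [S_zero]; simp)
    refine ⟨M₂, Z₂, g1, ?_, g3.trans (S_or_left _ _), g4⟩
    refine g2.trans ?_
    rintro x ⟨j, hj, rfl⟩
    have : (M' ||| M ||| (1 <<< m)).testBit j = true := by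
      simp [Nat.testBit_or, hj]
    rw [h1, Nat.testBit_or, Bool.or_eq_true] at this
    rcases this with h3 | h3
    · exact Set.mem_insert_of_mem _ ⟨j, h3, rfl⟩
    · have : m = j := by
        rw [Nat.one_shiftLeft, Nat.testBit_two_pow, decide_eq_true_eq] at h3
        exact h3
      subst this
      exact Set.mem_insert _ _

def chk (n m M' Z' M Z I : ℕ) : Bool :=
  Nat.beq I 0 && Nat.beq (M' ||| M ||| (1 <<< m)) (M' ||| (1 <<< m)) &&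
    Nat.beq Z' (Z ||| (1 <<< m))

theorem acc_fin' {n m M' Z' M Z I : ℕ} (ha : Acc n M Z I) (h : chk n m M' Z' M Z I = true) :
    G (n + 1) M' Z' := by
  unfold chk at h
  simp only [Bool.and_eq_true, beq_iff] at h
  obtain ⟨⟨rfl, h1⟩, h2⟩ := h
  exact acc_fin (m := m) ha (by simp only [Bool.and_eq_true, beq_iff]; exact ⟨h1, h2⟩)

theorem node2 (n m M' Z' : ℕ) {n₁ M₁ Z₁ n₂ M₂ Z₂ : ℕ}
    (p₁ : G n₁ M₁ Z₁) (p₂ : G n₂ M₂ Z₂)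
    (h : (Nat.ble n₁ n && Nat.ble n₂ n &&
      chk n m M' Z' (M₁ ||| M₂) (Z₁ ||| Z₂) (Z₁ &&& Z₂)) = true) : G (n + 1) M' Z' := by
  simp only [Bool.and_eq_true, Nat.ble_eq] at h
  obtain ⟨⟨h1, h2⟩, h⟩ := h
  exact acc_fin' (acc_cons p₂ h2 (acc_one p₁ h1)) h

theorem node3 (n m M' Z' : ℕ) {n₁ M₁ Z₁ n₂ M₂ Z₂ n₃ M₃ Z₃ : ℕ}
    (p₁ : G n₁ M₁ Z₁) (p₂ : G n₂ M₂ Z₂) (p₃ : G n₃ M₃ Z₃)
    (h : (Nat.ble n₁ n && Nat.ble n₂ n && Nat.ble n₃ n &&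
      chk n m M' Z' (M₁ ||| M₂ ||| M₃) (Z₁ ||| Z₂ ||| Z₃) (Z₁ &&& Z₂ &&& Z₃)) = true) :
    G (n + 1) M' Z' := by
  simp only [Bool.and_eq_true, Nat.ble_eq] at h
  obtain ⟨⟨⟨h1, h2⟩, h3⟩, h⟩ := h
  exact acc_fin' (acc_cons p₃ h3 (acc_cons p₂ h2 (acc_one p₁ h1))) h

theorem lf (o i c M Z : ℕ)
    (h : (Nat.beq (M ||| (1 <<< c)) (mask o <<< i) && Nat.ble (i % 15 + width o) 15 &&
      Nat.beq Z (1 <<< c)) = true) : G 1 M Z := leafG h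

theorem a1 {n n₁ M₁ Z₁ : ℕ} (h : G n₁ M₁ Z₁) (hn : Nat.ble n₁ n = true) : Acc n M₁ Z₁ Z₁ :=
  acc_one h (Nat.le_of_ble_eq_true hn)

theorem ac {n n₁ M₁ Z₁ M Z I : ℕ} (ha : Acc n M Z I) (h : G n₁ M₁ Z₁)
    (hn : Nat.ble n₁ n = true) : Acc n (M ||| M₁) (Z ||| Z₁) (I &&& Z₁) :=
  acc_cons h (Nat.le_of_ble_eq_true hn) ha

theorem af (n m M' Z' : ℕ) {M Z I : ℕ} (ha : Acc n M Z I) (h : chk n m M' Z' M Z I = true) :
    G (n + 1) M' Z' := acc_fin' ha h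

end Crest.Agent.Snaky
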